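import Vale.Agent.P216.H949.K2
import Vale.Agent.P216.H949.Sub949

open Bundle Manifold Vale.Agent.P216
open scoped ContDiff

namespace Vale.Agent.Results.P216.Centralizers

theorem result {E : Type} [NormedAddCommGroup E] [NormedSpace ℝ E] [FiniteDimensional ℝ E]
    {M : Type} [MetricSpace M] [CompactSpace M] [ChartedSpace E M] [IsManifold 𝓘(ℝ, E) ∞ M]
    [RiemannianBundle (fun x : M => TangentSpace 𝓘(ℝ, E) x)]
    [IsContMDiffRiemannianBundle 𝓘(ℝ, E) ∞ E (fun x : M => TangentSpace 𝓘(ℝ, E) x)]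
    [IsRiemannianManifold 𝓘(ℝ, E) M] (x₀ : M)
    (H : Subgroup (FundamentalGroup M x₀)) (hH : H.FiniteIndex)
    (h : ¬ H949.MalnormallyCovered H ∨
      (Infinite (ConjClasses H) ∧ ¬ IsCyclic H ∧
        ∃ z : H, z ≠ 1 ∧ (Set.range fun g : H => g * z * g⁻¹).Finite) ∨
      (Infinite (ConjClasses H) ∧ ∃ (A B : Type) (_ : Group A) (_ : Group B),
        Nontrivial A ∧ Nontrivial B ∧ Nonempty (H ≃* A × B)) ∨
      (¬ IsCyclic H ∧ ∃ (N : Subgroup H) (x z : H), N.Normal ∧ x ∈ N ∧ H949.ClassInfinite x ∧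
        z ≠ 1 ∧ ∀ y ∈ N, z * y = y * z) ∨
      (∃ (x t : H) (m n : ℤ), H949.ClassInfinite x ∧ m ≠ 0 ∧ t * x ^ m * t⁻¹ = x ^ n ∧
        ¬ ∃ y : H, x ∈ Subgroup.zpowers y ∧ t ∈ Subgroup.zpowers y)) :
    (primeClosedGeodesicImages M).Infinite := by
  intro hfin
  have h1 : H949.Cov0 H := (H949.final_riem (E := E) x₀ hfin).subgroup H
  rcases h with h | h
  · exact h h1.family
  · exact H949.not_malnormallyCovered h h1

end Vale.Agent.Results.P216.Centralizers
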