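import Vale.Agent.P216.R2.H983.Main

/-!
# P216: closed geodesics and class functions on the fundamental group

Conditions on the fundamental group of a closed Riemannian manifold, in terms of homogeneous
quasimorphisms, stable lengths and periodic flats of isometric actions, conjugacy classes of
finite order and conjugacy growth, under which the manifold has infinitely many closed geodesics.
-/

open Bundle Manifold Vale.Agent.P216
open scoped ContDiff

namespace Vale.Agent.Results.P216.ClassFunctions

theorem result {E : Type} [NormedAddCommGroup E] [NormedSpace ℝ E] [FiniteDimensional ℝ E]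
    {M : Type} [MetricSpace M] [CompactSpace M] [ChartedSpace E M] [IsManifold 𝓘(ℝ, E) ∞ M]
    [RiemannianBundle (fun x : M => TangentSpace 𝓘(ℝ, E) x)]
    [IsContMDiffRiemannianBundle 𝓘(ℝ, E) ∞ E (fun x : M => TangentSpace 𝓘(ℝ, E) x)]
    [IsRiemannianManifold 𝓘(ℝ, E) M] (x₀ : M)
    (h : (∃ (H : Subgroup (FundamentalGroup M x₀)) (Q : Type) (_ : Group Q) (r : H →* Q),
        H.FiniteIndex ∧ Function.Surjective r ∧
          (H983.Rich Q ∨ H983.HasPeriodicFlat Q ∨ H983.HasConvexSequence Q)) ∨
      H983.SuperlinearConjugacyGrowth (FundamentalGroup M x₀)) :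
    (primeClosedGeodesicImages M).Infinite :=
  H983.main E x₀ h

end Vale.Agent.Results.P216.ClassFunctions
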