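import Vale.Agent.P216.R2.H189.Main3

open Bundle Manifold Vale.Agent.P216
open scoped ContDiff

namespace Vale.Agent.Results.P216.PerfectResidual

theorem result {E : Type} [NormedAddCommGroup E] [NormedSpace ℝ E] [FiniteDimensional ℝ E]
    {M : Type} [MetricSpace M] [CompactSpace M] [ChartedSpace E M] [IsManifold 𝓘(ℝ, E) ∞ M]
    [RiemannianBundle (fun x : M => TangentSpace 𝓘(ℝ, E) x)]
    [IsContMDiffRiemannianBundle 𝓘(ℝ, E) ∞ E (fun x : M => TangentSpace 𝓘(ℝ, E) x)]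
    [IsRiemannianManifold 𝓘(ℝ, E) M]
    (x₀ : M) {Q : Type} [Group Q] (f : FundamentalGroup M x₀ →* Q) (hf : Function.Surjective f)
    (h : ((Infinite Q ∧ IsEmpty (Q ≃* Multiplicative ℤ) ∧ IsEmpty (Q ≃* DihedralGroup 0) ∧
        ∃ H : Subgroup Q, H.FiniteIndex ∧ ∀ K : Subgroup Q, K ≤ H → ⁅K, K⁆ = K → K = ⊥) ∨
      ((⁅finiteResidual Q, finiteResidual Q⁆ ≠ finiteResidual Q ∨
          ∃ K : Subgroup (finiteResidual Q), K.FiniteIndex ∧ K ≠ ⊤) ∧
        (AlmostSimpleSolvable Q ∨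
          ∃ H : Subgroup Q, H.FiniteIndex ∧ ∀ n : ℕ,
            ∃ (N : Subgroup H) (_ : N.Normal), N.FiniteIndex ∧ n ≤ N.index ∧
              Group.IsSolvable (H ⧸ N)))) ∨
      ∃ H : Subgroup Q, H.FiniteIndex ∧ ∃ (G : Type) (_ : Group G) (A B : Subgroup G) (φ : A ≃* B)
        (p : H →* HNNExtension G A B φ), Function.Surjective p ∧ A ≠ ⊤ ∧ B ≠ ⊤) :
    (primeClosedGeodesicImages M).Infinite :=
  R2.H189.V3.main E x₀ f hf h

end Vale.Agent.Results.P216.PerfectResidual
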