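import Vale.Agent.P216.R2.H930.Main

open Bundle Manifold Vale.Agent.P216 Vale.Agent.P216.R2.H930
open scoped ContDiff

namespace Vale.Agent.Results.P216.SymmetricMetrics

theorem result {E : Type*} [NormedAddCommGroup E] [NormedSpace ℝ E] [FiniteDimensional ℝ E]
    {M : Type*} [MetricSpace M] [CompactSpace M] [ChartedSpace E M] [IsManifold 𝓘(ℝ, E) ∞ M]
    [RiemannianBundle (fun x : M => TangentSpace 𝓘(ℝ, E) x)]
    [IsContMDiffRiemannianBundle 𝓘(ℝ, E) ∞ E (fun x : M => TangentSpace 𝓘(ℝ, E) x)]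
    [IsRiemannianManifold 𝓘(ℝ, E) M]
    {F : Type*} [NormedAddCommGroup F] [NormedSpace ℝ F] [FiniteDimensional ℝ F]
    {N : Type*} [MetricSpace N] [CompactSpace N] [ChartedSpace F N] [IsManifold 𝓘(ℝ, F) ∞ N]
    [RiemannianBundle (fun x : N => TangentSpace 𝓘(ℝ, F) x)]
    [IsContMDiffRiemannianBundle 𝓘(ℝ, F) ∞ F (fun x : N => TangentSpace 𝓘(ℝ, F) x)]
    [IsRiemannianManifold 𝓘(ℝ, F) N]
    (p : N → M) (hp : H126.IsLocIsom p) :
    (∀ φ : ℝ → N → N, CircleAction φ → ¬ IsPreconnected {x | ∀ s, φ s x = x} →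
      (primeClosedGeodesicImages M).Infinite) ∧
    (∀ (σ τ : N → N) (g : unitInterval → N → N) (A B : Set N), Isometry σ → Isometry τ →
      (∀ x, σ (σ x) = x) → (∀ x, τ (τ x) = x) → (∀ x, σ (τ x) = τ (σ x)) →
      IsoPath g → (∀ x, g 1 x = σ x) → IsClosed A → IsClosed B → A.Nonempty → B.Nonempty →
      Disjoint A B → (∀ x ∈ A, σ x = x) → (∀ x ∈ B, τ x = x) →
      IsClosed {x | σ x = x ∧ x ∉ A} → IsClosed {x | τ x = x ∧ x ∉ B} →
      (primeClosedGeodesicImages M).Infinite) ∧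
    (∀ (g : unitInterval → N → N) (c : ℝ → N) (P : ℝ), IsoPath g → 0 < P →
      IsGeodesicWithSpeed c 1 → Function.Periodic c P → (∀ a, ∃ t, g 1 (c t) ≠ c (t + a)) →
      (primeClosedGeodesicImages M).Infinite) ∧
    (∀ x₀ : N, Nontrivial (FundamentalGroup N x₀) →
      (∀ x : N, ∃ g h : unitInterval → N → N, IsoPath g ∧ IsoPath h ∧
        g 1 (h 1 x) ≠ h 1 (g 1 x)) → (primeClosedGeodesicImages M).Infinite) ∧
    (∀ x₀ : N, Nontrivial (FundamentalGroup N x₀) →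
      ∀ φ ψ : ℝ → N → N, CircleAction φ → CircleAction ψ →
      (∀ s t x, φ s (ψ t x) = ψ t (φ s x)) →
      (∀ x, {q : ℝ × ℝ | q ∈ Set.Ico (0 : ℝ) 1 ×ˢ Set.Ico (0 : ℝ) 1 ∧
        φ q.1 (ψ q.2 x) = x}.Finite) → (primeClosedGeodesicImages M).Infinite) ∧
    (∀ (φ : ℝ → N → N) (x₀ : N) (g : FundamentalGroup N x₀), CircleAction φ →
      (∀ (c : ℝ → N) (P : ℝ), 0 < P → IsGeodesicWithSpeed c 1 → Function.Periodic c P →
        ∃ s t, φ s (c t) ≠ c t) →
      ((∀ m : ℕ, 0 < m → g ^ m ∉ Subgroup.center (FundamentalGroup N x₀)) ∨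
        ((∃ x, ∀ s, φ s x = x) ∧ ∀ m : ℕ, 0 < m → g ^ m ≠ 1)) →
      (primeClosedGeodesicImages M).Infinite) := by
  have hS : HasSegments N := hasSegments_of_riemannian 𝓘(ℝ, F) N
  have hNB : NonBranching N := nonBranching_of_riemannian F N
  obtain ⟨S⟩ := exists_segs F N
  have key : (primeClosedGeodesicImages N).Infinite → (primeClosedGeodesicImages M).Infinite :=
    H126.infinite_of_locIsom (nonBranching_of_riemannian E M) hp
  refine ⟨?_, ?_, ?_, ?_, ?_, ?_⟩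
  · intro φ h1 h2
    exact key (infinite_of_circle S hS hNB h1.1 h1.2.1 h1.2.2.1 h1.2.2.2 h2)
  · intro σ τ g A B h1 h2 h3 h4 h5 h6 h9 h10 h11 h12 h13 h14 h15 h16 h17 h18
    exact key (infinite_of_involutions S hS hNB h1 h2 h3 h4 h5 h6.1 h6.2.1 h6.2.2 h9 h10 h11 h12
      h13 h14 h15 h16 h17 h18)
  · intro g c P h1 h2 h3 h4 h5
    exact key (infinite_of_moved hNB h1.1 h1.2.1 h1.2.2 h2 h3 h4 h5)
  · intro x₀ h1 h2
    obtain ⟨c, P, hP, hc, hper⟩ := exists_closed F N x₀ h1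
    obtain ⟨g, h, hg, hh, hgh⟩ := h2 (c 0)
    by_contra hfin
    have slide : ∀ k : unitInterval → N → N, IsoPath k → ∃ a, ∀ t, k 1 (c t) = c (t + a) := by
      intro k hk
      by_contra h3
      push Not at h3
      exact hfin (key (infinite_of_moved hNB hk.1 hk.2.1 hk.2.2 hP hc hper h3))
    obtain ⟨a, ha⟩ := slide g hg
    obtain ⟨b, hb⟩ := slide h hh
    apply hgh
    rw [ha, hb, hb, ha]
    congr 1
    ring
  · intro x₀ h1 φ ψ h2 h3 h4 h5
    obtain ⟨c, P, hP, hc, hper⟩ := exists_closed F N x₀ h1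
    by_contra hfin
    have slide : ∀ χ : ℝ → N → N, CircleAction χ → ∀ s, ∃ a, ∀ t, χ s (c t) = c (t + a) := by
      intro χ hχ s
      by_contra h6
      push Not at h6
      have h0 : ∀ x, χ 0 x = x := fun x => by
        have h7 := hχ.2.2.1 0 1 x
        rw [zero_add, hχ.2.2.2] at h7
        exact h7.symm
      refine hfin (key (infinite_of_moved (g := fun u x => χ ((u : ℝ) * s) x) hNB
        (fun u => hχ.1 _) (fun x => (hχ.2.1 x).comp (continuous_subtype_val.mul continuous_const))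
        (fun x => ?_) hP hc hper fun a => ?_))
      · simp only [Set.Icc.coe_zero, zero_mul]; exact h0 x
      · obtain ⟨t, ht⟩ := h6 a
        refine ⟨t, ?_⟩
        simp only [Set.Icc.coe_one, one_mul]
        exact ht
    exact infinite_isotropy h2 h3 h4 hP hc hper (slide φ h2) (slide ψ h3) (h5 (c 0))
  · intro φ x₀ g h1 h2 h3
    obtain ⟨r₀, hr₀, hsp⟩ := exists_smallPathsHomotopic F N
    exact key (infinite_of_circle_pi hS hNB hr₀ hsp x₀ h1.1 h1.2.1 h1.2.2.1 h1.2.2.2 h2 g h3)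

end Vale.Agent.Results.P216.SymmetricMetrics
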